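import Vale.Agent.Helper13.KTVG.TriEnc
import Vale.Agent.Helper16.KTV.Poincare

/-!
# P335, general graphs, module M2b: the triangle lemma for graphs with prescribed degrees

Transfer of the three-row inequality for binary tables (`KTV.three_row_of` with `tv2_col`)
to the graphs on `Fin n` with degree vector `d`, through the bijection of
`Vale.Agent.Helper13.KTVG.TriEnc`, fibre by fibre over the induced graph off the three
vertices; then the operator form through `KTV.tri_abstract`.
-/

namespace KTV.H13G

open Finset Classical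

variable {n : ℕ}

section Transfer

variable (rows : Fin 3 → Fin n)

/-- the fibre of `G0`: graphs with degrees `d` and the same label off the three rows -/
noncomputable def triFibre (d : Fin n → ℕ) (G0 : SimpleGraph (Fin n)) :
    Finset (SimpleGraph (Fin n)) :=
  (gOmega n d).filter fun G => offLab (rowSet rows) G = offLab (rowSet rows) G0

theorem mem_triFibre {d : Fin n → ℕ} {G0 G : SimpleGraph (Fin n)} :
    G ∈ triFibre rows d G0 ↔
      G ∈ gOmega n d ∧ offLab (rowSet rows) G = offLab (rowSet rows) G0 := by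
  unfold triFibre; rw [Finset.mem_filter]

/-- the tables of the fibre are exactly the tables with the margins of `enc rows G0` -/
theorem image_triFibre (hinj : Function.Injective rows) {d : Fin n → ℕ}
    {G0 : SimpleGraph (Fin n)} (hG0 : G0 ∈ gOmega n d) :
    (triFibre rows d G0).image (enc rows)
      = Omega (rowSum (enc rows G0)) (colSum (enc rows G0)) := by
  ext y
  rw [Finset.mem_image, KTV.mem_Omega_iff]
  constructor
  · rintro ⟨G, hG, rfl⟩
    obtain ⟨hGΩ, hlab⟩ := (mem_triFibre rows).1 hG
    exact margins_congr rows hinj hGΩ hG0 hlab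
  · rintro ⟨hr, hc⟩
    exact ⟨dec rows G0 y, (mem_triFibre rows).2 ⟨dec_mem rows hinj hG0 y hr hc,
      offLab_dec rows G0 y⟩, enc_dec rows hinj G0 y⟩

theorem injOn_triFibre (d : Fin n → ℕ) (G0 : SimpleGraph (Fin n)) :
    Set.InjOn (enc rows) (triFibre rows d G0 : Set (SimpleGraph (Fin n))) := by
  intro G hG G' hG' he
  have h1 := ((mem_triFibre rows).1 (Finset.mem_coe.1 hG)).2
  have h2 := ((mem_triFibre rows).1 (Finset.mem_coe.1 hG')).2
  exact enc_inj rows (h1.trans h2.symm) he

/-- the pair class of `G` inside its fibre corresponds to the tables with the same row `k` -/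
theorem image_pairClass (hinj : Function.Injective rows) {d : Fin n → ℕ}
    {G0 G : SimpleGraph (Fin n)} (hG0 : G0 ∈ gOmega n d) (hG : G ∈ triFibre rows d G0)
    (k : Fin 3) :
    ((gOmega n d).filter fun G' => offLab {rows (k + 1), rows (k + 2)} G'
        = offLab {rows (k + 1), rows (k + 2)} G).image (enc rows)
      = (Omega (rowSum (enc rows G0)) (colSum (enc rows G0))).filter
          fun y => enc rows G k = y k := by
  obtain ⟨hGΩ, hlab⟩ := (mem_triFibre rows).1 hG
  have hsub : ({rows (k + 1), rows (k + 2)} : Finset (Fin n)) ⊆ rowSet rows := by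
    intro a ha
    simp only [Finset.mem_insert, Finset.mem_singleton] at ha
    rcases ha with rfl | rfl <;> exact rows_mem rows _
  ext y
  rw [Finset.mem_image, Finset.mem_filter, KTV.mem_Omega_iff]
  constructor
  · rintro ⟨G', hG', rfl⟩
    obtain ⟨hG'Ω, hp⟩ := Finset.mem_filter.1 hG'
    have hT : offLab (rowSet rows) G' = offLab (rowSet rows) G := offLab_mono hsub hp
    refine ⟨margins_congr rows hinj hG'Ω hG0 (hT.trans hlab), ?_⟩
    exact ((pair_label_iff rows hinj hG'Ω hGΩ hT k).1 hp).symm
  · rintro ⟨⟨hr, hc⟩, hk⟩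
    have hd := dec_mem rows hinj hG0 y hr hc
    have hT : offLab (rowSet rows) (dec rows G0 y) = offLab (rowSet rows) G :=
      (offLab_dec rows G0 y).trans hlab.symm
    refine ⟨dec rows G0 y, Finset.mem_filter.2 ⟨hd, ?_⟩, enc_dec rows hinj G0 y⟩
    refine (pair_label_iff rows hinj hd hGΩ hT k).2 ?_
    rw [enc_dec rows hinj G0 y]
    exact hk.symm

theorem dec_enc {d : Fin n → ℕ} {G0 G : SimpleGraph (Fin n)} (hinj : Function.Injective rows)
    (hG : G ∈ triFibre rows d G0) : dec rows G0 (enc rows G) = G := by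
  obtain ⟨-, hlab⟩ := (mem_triFibre rows).1 hG
  exact enc_inj rows ((offLab_dec rows G0 _).trans hlab.symm) (enc_dec rows hinj G0 _)

theorem agreeOff_iff_row {β : Type*} (S : Finset (Fin 3)) (k : Fin 3)
    (hS : ∀ a, a ∉ S ↔ a = k) (x y : Tab (Fin 3) β) : AgreeOff S x y ↔ x k = y k := by
  unfold AgreeOff
  constructor
  · intro h; exact h k ((hS k).2 rfl)
  · intro h a ha; rw [(hS a).1 ha]; exact h

/-- resampling two rows of the table = conditional expectation given the graph off the
corresponding two vertices -/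
theorem cexp_pair_transfer (hinj : Function.Injective rows) {d : Fin n → ℕ}
    {G0 G : SimpleGraph (Fin n)} (hG0 : G0 ∈ gOmega n d) (hG : G ∈ triFibre rows d G0)
    (S : Finset (Fin 3)) (k : Fin 3) (hS : ∀ a, a ∉ S ↔ a = k) (a b : Fin n)
    (hab : ({a, b} : Finset (Fin n)) = {rows (k + 1), rows (k + 2)})
    (g : SimpleGraph (Fin n) → ℝ) :
    cexp (Omega (rowSum (enc rows G0)) (colSum (enc rows G0))) S
        (fun y => g (dec rows G0 y)) (enc rows G)
      = cexpL (gOmega n d) (offLab {a, b}) g G := by
  obtain ⟨hGΩ, hlab⟩ := (mem_triFibre rows).1 hG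
  have hsub : ({rows (k + 1), rows (k + 2)} : Finset (Fin n)) ⊆ rowSet rows := by
    intro a ha
    simp only [Finset.mem_insert, Finset.mem_singleton] at ha
    rcases ha with rfl | rfl <;> exact rows_mem rows _
  have hfib : fibre (Omega (rowSum (enc rows G0)) (colSum (enc rows G0))) S (enc rows G)
      = (Omega (rowSum (enc rows G0)) (colSum (enc rows G0))).filter
          fun y => enc rows G k = y k := by
    unfold fibre
    exact Finset.filter_congr fun y _ => agreeOff_iff_row S k hS _ _
  have hcls : ∀ G' ∈ (gOmega n d).filter (fun G' => offLab {rows (k + 1), rows (k + 2)} G'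
      = offLab {rows (k + 1), rows (k + 2)} G), G' ∈ triFibre rows d G0 := by
    intro G' hG'
    obtain ⟨hG'Ω, hp⟩ := Finset.mem_filter.1 hG'
    exact (mem_triFibre rows).2 ⟨hG'Ω, (offLab_mono hsub hp).trans hlab⟩
  have hinjC : Set.InjOn (enc rows) (((gOmega n d).filter fun G' =>
      offLab {rows (k + 1), rows (k + 2)} G' = offLab {rows (k + 1), rows (k + 2)} G :
        Finset (SimpleGraph (Fin n))) : Set (SimpleGraph (Fin n))) :=
    (injOn_triFibre rows d G0).mono fun G' hG' => Finset.mem_coe.2 (hcls G' (Finset.mem_coe.1 hG'))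
  rw [cexpL_eq, hab]
  unfold cexp
  rw [hfib, ← image_pairClass rows hinj hG0 hG k, Finset.sum_image hinjC,
    Finset.card_image_of_injOn hinjC]
  congr 1
  exact Finset.sum_congr rfl fun G' hG' => by rw [dec_enc rows hinj (hcls G' hG')]

/-- resampling all three rows = conditional expectation given the graph off the three
vertices -/
theorem cexp_all_transfer (hinj : Function.Injective rows) {d : Fin n → ℕ}
    {G0 G : SimpleGraph (Fin n)} (hG0 : G0 ∈ gOmega n d) (hG : G ∈ triFibre rows d G0)
    (S : Finset (Fin 3)) (hS : ∀ a, a ∈ S) (g : SimpleGraph (Fin n) → ℝ) :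
    cexp (Omega (rowSum (enc rows G0)) (colSum (enc rows G0))) S
        (fun y => g (dec rows G0 y)) (enc rows G)
      = cexpL (gOmega n d) (offLab (rowSet rows)) g G := by
  obtain ⟨hGΩ, hlab⟩ := (mem_triFibre rows).1 hG
  have hfib : fibre (Omega (rowSum (enc rows G0)) (colSum (enc rows G0))) S (enc rows G)
      = (triFibre rows d G0).image (enc rows) := by
    rw [image_triFibre rows hinj hG0]
    unfold fibre
    rw [Finset.filter_eq_self]
    intro y _ a ha
    exact absurd (hS a) ha
  have hcls : ((gOmega n d).filter fun G' => offLab (rowSet rows) G' = offLab (rowSet rows) G)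
      = triFibre rows d G0 := by
    unfold triFibre
    exact Finset.filter_congr fun G' _ => by rw [hlab]
  have hinjC := injOn_triFibre rows d G0
  rw [cexpL_eq, hcls]
  unfold cexp
  rw [hfib, Finset.sum_image hinjC, Finset.card_image_of_injOn hinjC]
  congr 1
  exact Finset.sum_congr rfl fun G' hG' => by rw [dec_enc rows hinj hG']

/-- the three-row inequality on one fibre -/
theorem graph_three_row_fibre (hinj : Function.Injective rows) (d : Fin n → ℕ)
    (g : SimpleGraph (Fin n) → ℝ) {G0 : SimpleGraph (Fin n)} (hG0 : G0 ∈ gOmega n d) :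
    ∑ G ∈ triFibre rows d G0, ((cexpL (gOmega n d) (offLab {rows 0, rows 1}) g G) ^ 2
        + (cexpL (gOmega n d) (offLab {rows 0, rows 2}) g G) ^ 2
        + (cexpL (gOmega n d) (offLab {rows 1, rows 2}) g G) ^ 2)
      ≤ 2 * ∑ G ∈ triFibre rows d G0, (g G) ^ 2
        + ∑ G ∈ triFibre rows d G0, (cexpL (gOmega n d) (offLab (rowSet rows)) g G) ^ 2 := by
  have key := three_row_of (fun _ _ _ t δ => tv2_col t δ) (rowSum (enc rows G0))
    (colSum (enc rows G0)) (a := (0 : Fin 3)) (b := 1) (d := 2) (by decide) (by decide)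
    (by decide) (fun y => g (dec rows G0 y))
  have hinjC := injOn_triFibre rows d G0
  rw [← image_triFibre rows hinj hG0, Finset.sum_image hinjC, Finset.sum_image hinjC,
    Finset.sum_image hinjC] at key
  have e1 : ∀ G ∈ triFibre rows d G0,
      (cexp ((triFibre rows d G0).image (enc rows)) {0, 1} (fun y => g (dec rows G0 y))
          (enc rows G)) ^ 2
        + (cexp ((triFibre rows d G0).image (enc rows)) {0, 2} (fun y => g (dec rows G0 y))
          (enc rows G)) ^ 2
        + (cexp ((triFibre rows d G0).image (enc rows)) {1, 2} (fun y => g (dec rows G0 y))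
          (enc rows G)) ^ 2
      = (cexpL (gOmega n d) (offLab {rows 0, rows 1}) g G) ^ 2
        + (cexpL (gOmega n d) (offLab {rows 0, rows 2}) g G) ^ 2
        + (cexpL (gOmega n d) (offLab {rows 1, rows 2}) g G) ^ 2 := by
    intro G hG
    rw [image_triFibre rows hinj hG0,
      cexp_pair_transfer rows hinj hG0 hG {0, 1} 2 (by decide) (rows 0) (rows 1) rfl g,
      cexp_pair_transfer rows hinj hG0 hG {0, 2} 1 (by decide) (rows 0) (rows 2)
        (Finset.pair_comm _ _) g,
      cexp_pair_transfer rows hinj hG0 hG {1, 2} 0 (by decide) (rows 1) (rows 2) rfl g]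
  have e2 : ∀ G ∈ triFibre rows d G0,
      (cexp ((triFibre rows d G0).image (enc rows)) {0, 1, 2} (fun y => g (dec rows G0 y))
          (enc rows G)) ^ 2
      = (cexpL (gOmega n d) (offLab (rowSet rows)) g G) ^ 2 := by
    intro G hG
    rw [image_triFibre rows hinj hG0,
      cexp_all_transfer rows hinj hG0 hG {0, 1, 2} (by decide) g]
  have e3 : ∀ G ∈ triFibre rows d G0, (g (dec rows G0 (enc rows G))) ^ 2 = (g G) ^ 2 :=
    fun G hG => by rw [dec_enc rows hinj hG]
  rw [Finset.sum_congr rfl e1, Finset.sum_congr rfl e2, Finset.sum_congr rfl e3] at key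
  exact key

/-- the three-row inequality for graphs with prescribed degrees, rows given by an injection
of `Fin 3` -/
theorem graph_three_row_rows (hinj : Function.Injective rows) (d : Fin n → ℕ)
    (g : SimpleGraph (Fin n) → ℝ) :
    ∑ G ∈ gOmega n d, ((cexpL (gOmega n d) (offLab {rows 0, rows 1}) g G) ^ 2
        + (cexpL (gOmega n d) (offLab {rows 0, rows 2}) g G) ^ 2
        + (cexpL (gOmega n d) (offLab {rows 1, rows 2}) g G) ^ 2)
      ≤ 2 * ∑ G ∈ gOmega n d, (g G) ^ 2
        + ∑ G ∈ gOmega n d, (cexpL (gOmega n d) (offLab (rowSet rows)) g G) ^ 2 := by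
  rw [← sum_fibres (gOmega n d) (offLab (rowSet rows))
      (fun G => (cexpL (gOmega n d) (offLab {rows 0, rows 1}) g G) ^ 2
        + (cexpL (gOmega n d) (offLab {rows 0, rows 2}) g G) ^ 2
        + (cexpL (gOmega n d) (offLab {rows 1, rows 2}) g G) ^ 2),
    ← sum_fibres (gOmega n d) (offLab (rowSet rows)) (fun G => (g G) ^ 2),
    ← sum_fibres (gOmega n d) (offLab (rowSet rows))
      (fun G => (cexpL (gOmega n d) (offLab (rowSet rows)) g G) ^ 2),
    Finset.mul_sum, ← Finset.sum_add_distrib]
  refine Finset.sum_le_sum fun z0 hz0 => ?_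
  obtain ⟨G0, hG0, rfl⟩ := Finset.mem_image.1 hz0
  exact graph_three_row_fibre rows hinj d g hG0

end Transfer

/-- **Three-vertex inequality for graphs with prescribed degrees** (TV2 form): for three
distinct vertices `u, v, w`, the conditional expectations given the graph off two of them
satisfy `|E_uv g|² + |E_uw g|² + |E_vw g|² ≤ 2 |g|² + |E_uvw g|²`. -/
theorem graph_three_row (d : Fin n → ℕ) {u v w : Fin n} (huv : u ≠ v) (huw : u ≠ w)
    (hvw : v ≠ w) (g : SimpleGraph (Fin n) → ℝ) :
    ∑ G ∈ gOmega n d, ((cexpL (gOmega n d) (offLab {u, v}) g G) ^ 2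
        + (cexpL (gOmega n d) (offLab {u, w}) g G) ^ 2
        + (cexpL (gOmega n d) (offLab {v, w}) g G) ^ 2)
      ≤ 2 * ∑ G ∈ gOmega n d, (g G) ^ 2
        + ∑ G ∈ gOmega n d, (cexpL (gOmega n d) (offLab {u, v, w}) g G) ^ 2 := by
  have hinj : Function.Injective (![u, v, w] : Fin 3 → Fin n) := by
    intro i j h
    rcases fin3_cases i with rfl | rfl | rfl <;> rcases fin3_cases j with rfl | rfl | rfl <;>
      simp_all
  have hT : rowSet (![u, v, w] : Fin 3 → Fin n) = {u, v, w} := by
    simp [rowSet]
  have key := graph_three_row_rows (![u, v, w] : Fin 3 → Fin n) hinj d g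
  rw [hT] at key
  exact key

/-- **Triangle lemma for graphs with prescribed degrees** (operator form): with
`A = 3 - E_uv - E_uw - E_vw`, `⟨f, A f⟩ ≤ |A f|²`. -/
theorem graph_tri (d : Fin n → ℕ) {u v w : Fin n} (huv : u ≠ v) (huw : u ≠ w)
    (hvw : v ≠ w) (f : SimpleGraph (Fin n) → ℝ) :
    ∑ G ∈ gOmega n d, f G * (3 * f G - cexpL (gOmega n d) (offLab {u, v}) f G
        - cexpL (gOmega n d) (offLab {u, w}) f G - cexpL (gOmega n d) (offLab {v, w}) f G)
      ≤ ∑ G ∈ gOmega n d, (3 * f G - cexpL (gOmega n d) (offLab {u, v}) f G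
        - cexpL (gOmega n d) (offLab {u, w}) f G
        - cexpL (gOmega n d) (offLab {v, w}) f G) ^ 2 := by
  have hsub1 : ({u, v} : Finset (Fin n)) ⊆ {u, v, w} := by
    intro a; simp only [Finset.mem_insert, Finset.mem_singleton]; tauto
  have hsub2 : ({u, w} : Finset (Fin n)) ⊆ {u, v, w} := by
    intro a; simp only [Finset.mem_insert, Finset.mem_singleton]; tauto
  have hsub3 : ({v, w} : Finset (Fin n)) ⊆ {u, v, w} := by
    intro a; simp only [Finset.mem_insert, Finset.mem_singleton]; tauto
  exact tri_abstract (gOmega n d) (offLab {u, v}) (offLab {u, w}) (offLab {v, w})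
    (offLab {u, v, w})
    (fun _ _ _ _ h => offLab_mono hsub1 h) (fun _ _ _ _ h => offLab_mono hsub2 h)
    (fun _ _ _ _ h => offLab_mono hsub3 h) (graph_three_row d huv huw hvw) f

end KTV.H13G
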